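import Vale.Agent.P207.N7.H547.AffLemA
import Vale.Agent.P207.N4.H534.Clock

/-!
# P207, Theorem H: rates of the flow in the affine charts, for all times `t ≥ 0`
-/

set_option maxSynthPendingDepth 3
set_option linter.unusedSectionVars false

open Set Filter Topology Metric MeasureTheory
open scoped ContDiff

noncomputable section

namespace Vale.Agent.P207.N4.Y.H761

open Vale.Agent.P207.N3

variable [Dim]

variable {Γ X B : Type} [Group Γ] [MetricSpace X] [ProperSpace X] [MulAction Γ X]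
  [IsIsometricSMul Γ X] [TopologicalSpace B] [CompactSpace B] [T2Space B] [MulAction Γ B]
  [ContinuousConstSMul Γ B] {L : Leaf Γ X B} (F : Aff L)

theorem P_eq (t : ℝ) (x : X) (q : E2) : F.P t x q = F.ch (L.φ t x) (F.pt x q) := by
  rw [← F.flow t x q, F.ch_pt]

theorem P_symm_eq (t : ℝ) (x : X) (q : E2) :
    (F.P t x).symm q = F.ch x (F.pt (L.φ t x) q) := by
  have h := F.flow t x ((F.P t x).symm q)
  rw [ContinuousLinearEquiv.apply_symm_apply] at h
  rw [h, F.ch_pt]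

theorem P_cont : Continuous fun p : (ℝ × X) × E2 => F.P p.1.1 p.1.2 p.2 := by
  simp only [P_eq F]
  have h1 : Continuous fun p : (ℝ × X) × E2 => L.φ p.1.1 p.1.2 := L.φ_cont.comp continuous_fst
  have h2 : Continuous fun p : (ℝ × X) × E2 => F.pt p.1.2 p.2 :=
    F.pt_cont.comp (continuous_fst.snd.prodMk continuous_snd)
  rw [← continuousOn_univ]
  refine F.ch_cont.comp (f := fun p : (ℝ × X) × E2 => (L.φ p.1.1 p.1.2, F.pt p.1.2 p.2))
    (h1.prodMk h2).continuousOn fun p _ => ?_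
  change F.pt p.1.2 p.2 ≠ L.em (L.φ p.1.1 p.1.2)
  rw [L.em_φ]
  exact F.pt_ne _ _

theorem P_symm_cont : Continuous fun p : (ℝ × X) × E2 => (F.P p.1.1 p.1.2).symm p.2 := by
  simp only [P_symm_eq F]
  have h1 : Continuous fun p : (ℝ × X) × E2 => L.φ p.1.1 p.1.2 := L.φ_cont.comp continuous_fst
  have h2 : Continuous fun p : (ℝ × X) × E2 => F.pt (L.φ p.1.1 p.1.2) p.2 :=
    F.pt_cont.comp (h1.prodMk continuous_snd)
  rw [← continuousOn_univ]
  refine F.ch_cont.comp (f := fun p : (ℝ × X) × E2 => (p.1.2, F.pt (L.φ p.1.1 p.1.2) p.2))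
    (continuous_fst.snd.prodMk h2).continuousOn fun p _ => ?_
  change F.pt (L.φ p.1.1 p.1.2) p.2 ≠ L.em p.1.2
  rw [← L.em_φ p.1.1]
  exact F.pt_ne _ _

theorem P_smul (g : Γ) (t : ℝ) (x : X) (q : E2) : F.P t (g • x) q = F.P t x q := by
  rw [P_eq, P_eq, F.pt_smul, L.φ_smul, F.ch_smul]
  rw [L.em_φ]
  exact F.pt_ne _ _

theorem P_symm_smul (g : Γ) (t : ℝ) (x : X) (q : E2) :
    (F.P t (g • x)).symm q = (F.P t x).symm q := by
  rw [ContinuousLinearEquiv.symm_apply_eq, P_smul, ContinuousLinearEquiv.apply_symm_apply]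

theorem bd_of (L : Leaf Γ X B) {f : ℝ → X → E2 →L[ℝ] E2} (hf : Continuous fun p : (ℝ × X) × E2 => f p.1.1 p.1.2 p.2)
    (hinv : ∀ (g : Γ) t x q, f t (g • x) q = f t x q) (T : ℝ) :
    ∃ M : ℝ, 0 ≤ M ∧ ∀ t ∈ Icc (0 : ℝ) T, ∀ x q, ‖f t x q‖ ≤ M * ‖q‖ := by
  obtain ⟨K, hK, hK'⟩ := L.cocompact
  obtain ⟨M, hM⟩ := (((isCompact_Icc (a := (0 : ℝ)) (b := T)).prod hK).prod
    (isCompact_closedBall (0 : E2) 1)).exists_bound_of_continuousOn hf.continuousOn
  refine ⟨max M 0, le_max_right _ _, fun t ht x q => ?_⟩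
  obtain ⟨g, hg⟩ := hK' x
  have h1 : ‖f t x‖ ≤ max M 0 := by
    refine ContinuousLinearMap.opNorm_le_of_unit_norm (le_max_right _ _) fun w hw => ?_
    have h2 := hM ((t, g • x), w) ⟨⟨ht, hg⟩, by rw [mem_closedBall_zero_iff, hw]⟩
    simp only at h2
    rw [hinv] at h2
    exact h2.trans (le_max_left _ _)
  exact (f t x).le_of_opNorm_le h1 q

variable [MeasurableSpace B] [BorelSpace B] {V : Type}
  [NormedAddCommGroup V] [NormedSpace ℝ V] [FiniteDimensional ℝ V]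

/-- the clock of a picture -/
theorem clk (P : Pic L V) : Clock.Ok L P.Ra.c P.Ra.c₀ P.Ra.c₁ :=
  ⟨P.Ra.c_cont, P.Ra.c_smul, P.Ra.c_rot, P.Ra.c_flip, P.Ra.c₀_pos, P.Ra.c_lo, P.Ra.c_hi⟩

/-- **(RATE-ALL)** the rates of the flow in the affine charts, for all times `t ≥ 0`, up to a
constant. -/
theorem rate_all (P : Pic L V) (hR : P.RateP) : ∃ C : ℝ, 1 ≤ C ∧ ∀ t, 0 ≤ t → ∀ x q,
    Real.exp (P.Ra.a * P.sg t x) * ‖q‖ ≤ C * ‖P.Af.P t x q‖ ∧
      ‖P.Af.P t x q‖ ≤ C * Real.exp (P.Ra.b * P.sg t x) * ‖q‖ := by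
  have ha := P.Ra.a_pos.le
  have hb := P.Ra.a_pos.le.trans P.Ra.a_le_b
  set T := P.Ra.T with hT0
  obtain ⟨M, hM0, hM⟩ := bd_of L (f := fun t x => (P.Af.P t x : E2 →L[ℝ] E2)) (P_cont P.Af)
    (P_smul P.Af) T
  obtain ⟨M', hM'0, hM'⟩ := bd_of L (f := fun t x => ((P.Af.P t x).symm : E2 →L[ℝ] E2))
    (P_symm_cont P.Af) (P_symm_smul P.Af) T
  refine ⟨max 1 (max M (Real.exp (P.Ra.a * (P.Ra.c₁ * T)) * M')), le_max_left _ _,
    fun t ht x q => ?_⟩
  have h1 : (1 : ℝ) ≤ max 1 (max M (Real.exp (P.Ra.a * (P.Ra.c₁ * T)) * M')) := le_max_left _ _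
  have hsg : 0 ≤ P.sg t x := Clock.sg_nonneg (clk P) ht x
  have hbt : 1 ≤ Real.exp (P.Ra.b * P.sg t x) := Real.one_le_exp (mul_nonneg hb hsg)
  rcases le_total T t with hT | hT
  · obtain ⟨h2, h3⟩ := hR t hT x q
    refine ⟨h2.trans (le_mul_of_one_le_left (norm_nonneg _) h1), h3.trans ?_⟩
    exact mul_le_mul_of_nonneg_right (le_mul_of_one_le_left (Real.exp_pos _).le h1) (norm_nonneg _)
  · have h2 := hM t ⟨ht, hT⟩ x q
    have h3 := hM' t ⟨ht, hT⟩ x (P.Af.P t x q)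
    simp only [ContinuousLinearEquiv.coe_coe, ContinuousLinearEquiv.symm_apply_apply] at h2 h3
    constructor
    · have h5 : P.sg t x ≤ P.Ra.c₁ * T :=
        (Clock.sg_hi (clk P) ht x).trans (mul_le_mul_of_nonneg_left hT (clk P).c₁_pos.le)
      have h4 : Real.exp (P.Ra.a * P.sg t x) ≤ Real.exp (P.Ra.a * (P.Ra.c₁ * T)) :=
        Real.exp_le_exp.2 (mul_le_mul_of_nonneg_left h5 ha)
      calc Real.exp (P.Ra.a * P.sg t x) * ‖q‖
          ≤ Real.exp (P.Ra.a * (P.Ra.c₁ * T)) * (M' * ‖P.Af.P t x q‖) :=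
            mul_le_mul h4 h3 (norm_nonneg _) (Real.exp_pos _).le
        _ = Real.exp (P.Ra.a * (P.Ra.c₁ * T)) * M' * ‖P.Af.P t x q‖ := by ring
        _ ≤ _ := mul_le_mul_of_nonneg_right
            ((le_max_right _ _).trans (le_max_right _ _)) (norm_nonneg _)
    · refine h2.trans (mul_le_mul_of_nonneg_right ?_ (norm_nonneg _))
      exact ((le_max_left _ _).trans (le_max_right _ _)).trans
        (le_mul_of_one_le_right (zero_le_one.trans h1) hbt)

end Vale.Agent.P207.N4.Y.H761
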